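import Vale.Agent.Results.P162.MixLinearTwoSided
import Vale.Agent.Lib.P162A.MixGen

/-!
The two sides of the mixing time of the Thorp shuffle for `n = 2 ^ D` cards, and the upper bound
for every even number of cards.
-/

namespace Vale.Agent.Results.P162.A0Conj

/-- For `2 ^ (d + 1)` cards, at least `300000 * (d + 1)` Thorp shuffles bring the deck within total
variation distance `1 / 4` of uniform and fewer than `d` shuffles do not.  For any even number
`2 * m ≤ 2 ^ d` of cards, `150000000 * d ^ 2` shuffles suffice. -/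
theorem result :
    (∀ d t : ℕ,
      (300000 * (d + 1) ≤ t →
        Vale.Agent.Lib.P162.tvUniform
          (Vale.Agent.Lib.P162.convPow (Vale.Agent.Lib.P162.thorpLaw (2 ^ d)) t) ≤ 1 / 4) ∧
      (t < d →
        1 / 4 < Vale.Agent.Lib.P162.tvUniform
          (Vale.Agent.Lib.P162.convPow (Vale.Agent.Lib.P162.thorpLaw (2 ^ d)) t))) ∧
    (∀ m d t : ℕ, 0 < m → 2 * m ≤ 2 ^ d → 150000000 * d ^ 2 ≤ t →
      Vale.Agent.Lib.P162.tvUniform
        (Vale.Agent.Lib.P162.convPow (Vale.Agent.Lib.P162.thorpLaw m) t) ≤ 1 / 4) :=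
  ⟨fun d t => Vale.Agent.Results.P162.MixLinearTwoSided.result d t,
    fun m d t hm hd ht => Vale.Agent.Lib.P162.thorp_main_gen m d t hm hd ht⟩

end Vale.Agent.Results.P162.A0Conj
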