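import Vale.Agent.Lib.P162.MixGen

/-!
For a deck of `2 * m` cards with `2 * m ≤ 2 ^ d`, at least `150000000 * d ^ 2` Thorp shuffles
bring the law of the deck within total variation distance `1 / 4` of uniform.
-/

namespace Vale.Agent.Results.P162.MixAllEven

/-- Mixing time of the Thorp shuffle on any even number `2 * m ≤ 2 ^ d` of cards is at most
`150000000 * d ^ 2`. -/
theorem result (m d t : ℕ) (hm : 0 < m) (hd : 2 * m ≤ 2 ^ d) (ht : 150000000 * d ^ 2 ≤ t) :
    Vale.Agent.Lib.P162.tvUniform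
        (Vale.Agent.Lib.P162.convPow (Vale.Agent.Lib.P162.thorpLaw m) t) ≤ 1 / 4 :=
  Vale.Agent.Lib.P162.thorp_main_gen m d t hm hd ht

end Vale.Agent.Results.P162.MixAllEven
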