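import Vale.Agent.Lib.P162.OAsm

/-!
For a deck of `2 * 2 ^ d = 2 ^ (d + 1)` cards, at least `300000 * (d + 1)` Thorp shuffles bring the
law of the deck within total variation distance `1 / 4` of uniform. So the mixing time for
`n = 2 ^ D` cards is at most `300000 * D`: it is `O(log n)`, which is the order of the lower bound.
-/

namespace Vale.Agent.Results.P162.MixLinear

/-- The mixing time of the Thorp shuffle on `2 ^ (d + 1)` cards is at most `300000 * (d + 1)`. -/
theorem result (d t : ℕ) (ht : 300000 * (d + 1) ≤ t) :
    Vale.Agent.Lib.P162.tvUniform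
        (Vale.Agent.Lib.P162.convPow (Vale.Agent.Lib.P162.thorpLaw (2 ^ d)) t) ≤ 1 / 4 :=
  Vale.Agent.Lib.P162.thorp_linear d t ht

end Vale.Agent.Results.P162.MixLinear
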