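import Vale.Agent.Lib.P162.OAsm
import Vale.Agent.Lib.P162.OLower

/-!
For a deck of `2 * 2 ^ d = 2 ^ (d + 1)` cards, at least `300000 * (d + 1)` Thorp shuffles bring the
law of the deck within total variation distance `1 / 4` of uniform, and fewer than `d` shuffles do
not. So the mixing time for `n = 2 ^ D` cards is between `D - 1` and `300000 * D`: it has the order
of growth of `log n`.
-/

namespace Vale.Agent.Results.P162.MixLinearTwoSided

/-- The mixing time of the Thorp shuffle on `2 ^ (d + 1)` cards is at most `300000 * (d + 1)` and at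
least `d`. -/
theorem result (d t : ℕ) :
    (300000 * (d + 1) ≤ t →
      Vale.Agent.Lib.P162.tvUniform
        (Vale.Agent.Lib.P162.convPow (Vale.Agent.Lib.P162.thorpLaw (2 ^ d)) t) ≤ 1 / 4) ∧
    (t < d →
      1 / 4 < Vale.Agent.Lib.P162.tvUniform
        (Vale.Agent.Lib.P162.convPow (Vale.Agent.Lib.P162.thorpLaw (2 ^ d)) t)) :=
  ⟨Vale.Agent.Lib.P162.thorp_linear d t, Vale.Agent.Lib.P162.thorp_lower d t⟩

end Vale.Agent.Results.P162.MixLinearTwoSided
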