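import Vale.Agent.Lib.P162.Final

/-!
For a deck of `2 * 2 ^ d = 2 ^ (d + 1)` cards, at least `500 * (d + 1) ^ 2` Thorp shuffles
bring the law of the deck within total variation distance `1 / 4` of uniform.
-/

namespace Vale.Agent.Results.P162.MixLogSquared

/-- Mixing time of the Thorp shuffle on `2 ^ (d + 1)` cards is at most `500 * (d + 1) ^ 2`. -/
theorem result (d t : ℕ) (ht : 500 * (d + 1) ^ 2 ≤ t) :
    Vale.Agent.Lib.P162.tvUniform
        (Vale.Agent.Lib.P162.convPow (Vale.Agent.Lib.P162.thorpLaw (2 ^ d)) t) ≤ 1 / 4 :=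
  Vale.Agent.Lib.P162.thorp_main d t ht

end Vale.Agent.Results.P162.MixLogSquared
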